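import Vale.Agent.P181.Main

open Vale.Agent.P181

/-- For `b ≥ (a-1)²` and every finite-dimensional complex `V`, the Foulkes-Howe map
`Symᵃ(Symᵇ V) → Symᵇ(Symᵃ V)` is a `GL(V)`-equivariant injection. -/
theorem Vale.Agent.Results.P181.Quadratic.result (a b : ℕ) (hb : (a - 1) ^ 2 ≤ b)
    (V : Type) [AddCommGroup V] [Module ℂ V] [FiniteDimensional ℂ V] :
    ∃ Φ : SymP a (SymP b V) →ₗ[ℂ] SymP b (SymP a V),
      Function.Injective Φ ∧ IsEquivariant Φ ∧ IsFoulkesHowe Φ := by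
  obtain ⟨Φ, hΦ⟩ := exists_FH (V := V) a b
  have hinj := FH_injective a b hb Φ hΦ
  let Ψ : SymP a (SymP b V) →ₗ[ℂ] SymP b (SymP a V) := Φ
  have hΨ : IsFoulkesHowe Ψ := hΦ
  refine ⟨Ψ, hinj, fun g x => ?_, hΨ⟩
  have : Ψ ∘ₗ symMap a (symMap b g.toLinearMap) = symMap b (symMap a g.toLinearMap) ∘ₗ Ψ := by
    refine sym_ext_gen (M := SymP b V) (N := SymP b (SymP a V)) (sprod (k := b) (M := V))
      (SymmetricPower.span_tprod_eq_top ℂ (Fin b) V) fun v => ?_
    change Ψ (symMap a (symMap b g.toLinearMap) (sprod fun i => sprod (v i))) =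
      symMap b (symMap a g.toLinearMap) (Ψ (sprod fun i => sprod (v i)))
    simp only [symMap_sprod, map_sum, hΨ v, hΨ fun i j => g.toLinearMap (v i j)]
  exact LinearMap.congr_fun this x
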