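import Vale.Agent.P181.D.Fin
import Vale.Agent.Results.P181.Quadratic

open Vale.Agent.P181

/-- Foulkes' conjecture holds for `a = 6` and all `b ≥ 6`, and for all `a`, `b` with
`b ≥ (a-1)²`, where the Foulkes-Howe map itself is injective. -/
theorem Vale.Agent.Results.P181.Sixth.result
    (V : Type) [AddCommGroup V] [Module ℂ V] [FiniteDimensional ℂ V] :
    (∀ b : ℕ, 6 ≤ b → ∃ Φ : SymP 6 (SymP b V) →ₗ[ℂ] SymP b (SymP 6 V),
      Function.Injective Φ ∧ IsEquivariant Φ) ∧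
    ∀ a b : ℕ, (a - 1) ^ 2 ≤ b → ∃ Φ : SymP a (SymP b V) →ₗ[ℂ] SymP b (SymP a V),
      Function.Injective Φ ∧ IsEquivariant Φ ∧ IsFoulkesHowe Φ := by
  refine ⟨fun b hb => ?_, fun a b h => Vale.Agent.Results.P181.Quadratic.result a b h V⟩
  by_cases h6 : b = 6
  · subst h6
    exact ⟨LinearMap.id, Function.injective_id, fun _ _ => rfl⟩
  by_cases h24 : b ≤ 24
  · exact S.sixth S.gdAll b (by omega) h24 V
  · obtain ⟨Φ, h1, h2, -⟩ := Vale.Agent.Results.P181.Quadratic.result 6 b (by omega) V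
    exact ⟨Φ, h1, h2⟩
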