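import Vale.Agent.P181.Surj
import Vale.Agent.Results.P181.Sixth

open Vale.Agent.P181

/-- Foulkes' conjecture holds for `a = 6` and all `b ≥ 6`; for `b ≥ (a-1)²` the Foulkes-Howe map
is injective and the Foulkes-Howe map in the opposite direction is surjective. -/
theorem Vale.Agent.Results.P181.SixthDual.result
    (V : Type) [AddCommGroup V] [Module ℂ V] [FiniteDimensional ℂ V] :
    (∀ b : ℕ, 6 ≤ b → ∃ Φ : SymP 6 (SymP b V) →ₗ[ℂ] SymP b (SymP 6 V),
      Function.Injective Φ ∧ IsEquivariant Φ) ∧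
    ∀ a b : ℕ, (a - 1) ^ 2 ≤ b →
      (∃ Φ : SymP a (SymP b V) →ₗ[ℂ] SymP b (SymP a V),
        Function.Injective Φ ∧ IsEquivariant Φ ∧ IsFoulkesHowe Φ) ∧
      ∃ Ψ : SymP b (SymP a V) →ₗ[ℂ] SymP a (SymP b V),
        Function.Surjective Ψ ∧ IsEquivariant Ψ ∧ IsFoulkesHowe Ψ := by
  refine ⟨(Vale.Agent.Results.P181.Sixth.result V).1, fun a b hb =>
    ⟨(Vale.Agent.Results.P181.Sixth.result V).2 a b hb, ?_⟩⟩
  obtain ⟨Φ, hΦ⟩ := exists_FH (V := V) b a
  have hs := FH_surjective a b hb Φ hΦ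
  let Ψ : SymP b (SymP a V) →ₗ[ℂ] SymP a (SymP b V) := Φ
  have hΨ : IsFoulkesHowe Ψ := hΦ
  refine ⟨Ψ, hs, fun g x => ?_, hΨ⟩
  have : Ψ ∘ₗ symMap b (symMap a g.toLinearMap) = symMap a (symMap b g.toLinearMap) ∘ₗ Ψ := by
    refine sym_ext_gen (M := SymP a V) (N := SymP a (SymP b V)) (sprod (k := a) (M := V))
      (SymmetricPower.span_tprod_eq_top ℂ (Fin a) V) fun v => ?_
    change Ψ (symMap b (symMap a g.toLinearMap) (sprod fun i => sprod (v i))) =
      symMap a (symMap b g.toLinearMap) (Ψ (sprod fun i => sprod (v i)))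
    simp only [symMap_sprod, map_sum, hΨ v, hΨ fun i j => g.toLinearMap (v i j)]
  exact LinearMap.congr_fun this x
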